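import Mathlib

/-!
Alternating cycles: two fixed point free involutions generating a transitive action
give a Hamiltonian cycle.
-/

namespace Vale.Agent.Lib.P039

open Function

variable {V : Type*}

/-- The relation generated by the edges of the two matchings. -/
def Rel2 (m n : V → V) : V → V → Prop :=
  Relation.EqvGen (fun a b => b = m a ∨ b = n a)

/-- From a closed chain through all vertices to a Hamiltonian cycle. -/
theorem ham_of_chain [Fintype V] [DecidableEq V] (G : SimpleGraph V)
    (a : ℕ → V) (N : ℕ) (hN : 3 ≤ N)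
    (hadj : ∀ i, i + 1 < N → G.Adj (a i) (a (i + 1)))
    (hclose : G.Adj (a (N - 1)) (a 0))
    (hinj : ∀ i j, i < N → j < N → a i = a j → i = j)
    (hcov : ∀ v, ∃ i, i < N ∧ a i = v) : G.IsHamiltonian := by
  classical
  intro _
  have hwalk : ∀ j, j < N → ∃ p : G.Walk (a 0) (a j),
      p.support = (List.range (j + 1)).map a ∧
      p.edges = (List.range j).map (fun i => s(a i, a (i + 1))) := by
    intro j
    induction j with
    | zero =>
      intro _
      refine ⟨SimpleGraph.Walk.nil, ?_, ?_⟩ <;> simp
    | succ j ih =>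
      intro hj
      obtain ⟨p, hp1, hp2⟩ := ih (by omega)
      refine ⟨p.concat (hadj j hj), ?_, ?_⟩
      · rw [SimpleGraph.Walk.support_concat, hp1, List.range_succ (n := j + 1),
          List.map_append]
        simp
      · rw [SimpleGraph.Walk.edges_concat, hp2, List.range_succ (n := j)]
        simp
  obtain ⟨q, hq1, hq2⟩ := hwalk (N - 1) (by omega)
  have hlen : N - 1 + 1 = N := by omega
  rw [hlen] at hq1
  have hnodup : q.support.Nodup := by
    rw [hq1]
    refine List.Nodup.map_on ?_ List.nodup_range
    intro i hi j hj hij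
    exact hinj i j (List.mem_range.mp hi) (List.mem_range.mp hj) hij
  have hpath : q.IsPath := SimpleGraph.Walk.IsPath.mk' hnodup
  have hmem : ∀ v, v ∈ q.support := by
    intro v
    obtain ⟨i, hi, rfl⟩ := hcov v
    rw [hq1]
    exact List.mem_map.mpr ⟨i, List.mem_range.mpr hi, rfl⟩
  have hedge : s(a (N - 1), a 0) ∉ q.edges := by
    intro hmem'
    rw [hq2] at hmem'
    obtain ⟨i, hi, heq⟩ := List.mem_map.mp hmem'
    have hi' : i < N - 1 := List.mem_range.mp hi
    rw [Sym2.eq_iff] at heq
    rcases heq with ⟨h1, _⟩ | ⟨h1, h2⟩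
    · have := hinj i (N - 1) (by omega) (by omega) h1
      omega
    · have h3 := hinj i 0 (by omega) (by omega) h1
      have h4 := hinj (i + 1) (N - 1) (by omega) (by omega) h2
      omega
  refine ⟨a (N - 1), SimpleGraph.Walk.cons hclose q, ?_⟩
  rw [SimpleGraph.Walk.isHamiltonianCycle_iff_isCycle_and_support_count_tail_eq_one]
  refine ⟨(SimpleGraph.Walk.cons_isCycle_iff q hclose).mpr ⟨hpath, hedge⟩, ?_⟩
  intro v
  simp only [SimpleGraph.Walk.support_cons, List.tail_cons]
  exact le_antisymm (List.nodup_iff_count_le_one.1 hnodup v) (List.count_pos_iff.2 (hmem v))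

section involutions

variable (m n : V → V)

/-- the step map. -/
def stepMap : V → V := fun v => n (m v)

variable {m n}

private theorem no_collision (hm : ∀ v, m (m v) = v) (hn : ∀ v, n (n v) = v)
    (hm0 : ∀ v, m v ≠ v) (hn0 : ∀ v, n v ≠ v) :
    ∀ d s, m s ≠ (stepMap m n)^[d] s := by
  intro d
  induction d using Nat.strong_induction_on with
  | _ d ih =>
    intro s h
    match d, ih, h with
    | 0, _, h => exact hm0 s (by simpa using h)
    | 1, _, h =>
      have h' : m s = n (m s) := by simpa [stepMap] using h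
      exact hn0 (m s) h'.symm
    | d + 2, ih, h =>
      have h1 : (stepMap m n)^[d + 2] s = stepMap m n ((stepMap m n)^[d + 1] s) :=
        Function.iterate_succ_apply' _ _ _
      have h2 : m (n (m s)) = (stepMap m n)^[d + 1] s := by
        rw [h, h1]
        simp [stepMap, hn, hm]
      have h3 : (stepMap m n)^[d + 1] s = (stepMap m n)^[d] (stepMap m n s) :=
        Function.iterate_succ_apply _ _ _
      exact ih d (by omega) (stepMap m n s) (by
        show m (n (m s)) = _
        rw [h2, h3])

end involutions

/-- Two fixed point free involutions along edges, transitive together: Hamiltonian cycle. -/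
theorem ham_of_transitive [Fintype V] [DecidableEq V] [Nonempty V] (G : SimpleGraph V)
    (m n : V → V) (hm : ∀ v, m (m v) = v) (hn : ∀ v, n (n v) = v)
    (hmA : ∀ v, G.Adj v (m v)) (hnA : ∀ v, G.Adj v (n v)) (hmn : ∀ v, m v ≠ n v)
    (htr : ∀ u v, Rel2 m n u v) : G.IsHamiltonian := by
  classical
  have hm0 : ∀ v, m v ≠ v := fun v h => (hmA v).ne h.symm
  have hn0 : ∀ v, n v ≠ v := fun v h => (hnA v).ne h.symm
  obtain ⟨x0⟩ := ‹Nonempty V›
  set π := stepMap m n with hπ
  have hπinj : Function.Injective π := by
    intro u v h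
    have : n (n (m u)) = n (n (m v)) := congrArg n h
    simp only [hn] at this
    have h2 : m (m u) = m (m v) := congrArg m this
    simpa only [hm] using h2
  have hper : x0 ∈ Function.periodicPts π := by
    have hfin : Function.Injective π := hπinj
    exact Function.Injective.mem_periodicPts hfin x0
  set k := Function.minimalPeriod π x0 with hk
  have hkpos : 0 < k := Function.minimalPeriod_pos_of_mem_periodicPts hper
  have hk1 : k ≠ 1 := by
    intro h1
    have h2 : π^[Function.minimalPeriod π x0] x0 = x0 := Function.iterate_minimalPeriod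
    rw [← hk, h1] at h2
    have h3 : n (m x0) = x0 := by simpa [hπ, stepMap] using h2
    exact hmn x0 (by rw [← h3, hn (m x0), h3])
  have hk2 : 2 ≤ k := by omega
  -- the chain
  let a : ℕ → V := fun i => if i % 2 = 0 then π^[i / 2] x0 else m (π^[i / 2] x0)
  have ha_even : ∀ j, a (2 * j) = π^[j] x0 := by
    intro j
    have h1 : (2 * j) % 2 = 0 := by omega
    have h2 : (2 * j) / 2 = j := by omega
    simp only [a, h1, h2, if_true]
  have ha_odd : ∀ j, a (2 * j + 1) = m (π^[j] x0) := by
    intro j
    have h1 : (2 * j + 1) % 2 = 1 := by omega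
    have h2 : (2 * j + 1) / 2 = j := by omega
    simp [a, h1, h2]
  have hsucc : ∀ j, π^[j + 1] x0 = n (m (π^[j] x0)) := by
    intro j
    rw [Function.iterate_succ_apply']
    rfl
  have hcoll := no_collision (m := m) (n := n) hm hn hm0 hn0
  have hinjE : ∀ i j, i < k → j < k → π^[i] x0 = π^[j] x0 → i = j := by
    intro i j hi hj h
    exact Function.iterate_injOn_Iio_minimalPeriod (Set.mem_Iio.mpr hi) (Set.mem_Iio.mpr hj) h
  have hEO : ∀ i j, π^[i] x0 ≠ m (π^[j] x0) := by
    intro i j h
    rcases le_total j i with hij | hij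
    · apply hcoll (i - j) (π^[j] x0)
      rw [← h, ← Function.iterate_add_apply]
      congr 2
      omega
    · apply hcoll (j - i) (π^[i] x0)
      have h5 : m (π^[i] x0) = π^[j] x0 := by rw [h, hm]
      rw [h5, ← Function.iterate_add_apply]
      congr 2
      omega
  refine ham_of_chain G a (2 * k) (by omega) ?_ ?_ ?_ ?_
  · intro i hi
    rcases Nat.even_or_odd' i with ⟨j, rfl | rfl⟩
    · rw [ha_even, show 2 * j + 1 = 2 * j + 1 from rfl, ha_odd]
      exact hmA _
    · rw [ha_odd, show 2 * j + 1 + 1 = 2 * (j + 1) by ring, ha_even, hsucc]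
      exact hnA _
  · have h0 : a 0 = x0 := by
      have := ha_even 0
      simpa using this
    have h1 : 2 * k - 1 = 2 * (k - 1) + 1 := by omega
    rw [h1, ha_odd, h0]
    have h2 : π^[k - 1 + 1] x0 = x0 := by
      rw [show k - 1 + 1 = k by omega]
      exact Function.iterate_minimalPeriod
    rw [hsucc] at h2
    have h3 := hnA (m (π^[k - 1] x0))
    rwa [h2] at h3
  · intro i j hi hj hij
    rcases Nat.even_or_odd' i with ⟨i', rfl | rfl⟩ <;>
      rcases Nat.even_or_odd' j with ⟨j', rfl | rfl⟩
    · rw [ha_even, ha_even] at hij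
      have := hinjE i' j' (by omega) (by omega) hij
      omega
    · rw [ha_even, ha_odd] at hij
      exact absurd hij (hEO _ _)
    · rw [ha_even, ha_odd] at hij
      exact absurd hij.symm (hEO _ _)
    · rw [ha_odd, ha_odd] at hij
      have h2 : π^[i'] x0 = π^[j'] x0 := by
        have := congrArg m hij
        simpa only [hm] using this
      have := hinjE i' j' (by omega) (by omega) h2
      omega
  · -- coverage
    have hE : ∀ j, ∃ i, i < 2 * k ∧ a i = π^[j] x0 := by
      intro j
      refine ⟨2 * (j % k), ?_, ?_⟩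
      · have := Nat.mod_lt j hkpos
        omega
      · rw [ha_even]
        exact Function.iterate_mod_minimalPeriod_eq
    have hO : ∀ j, ∃ i, i < 2 * k ∧ a i = m (π^[j] x0) := by
      intro j
      refine ⟨2 * (j % k) + 1, ?_, ?_⟩
      · have := Nat.mod_lt j hkpos
        omega
      · rw [ha_odd]
        congr 1
        exact Function.iterate_mod_minimalPeriod_eq
    have hclosed : ∀ u, (∃ j, u = π^[j] x0 ∨ u = m (π^[j] x0)) →
        (∃ j, m u = π^[j] x0 ∨ m u = m (π^[j] x0)) ∧
        (∃ j, n u = π^[j] x0 ∨ n u = m (π^[j] x0)) := by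
      rintro u ⟨j, rfl | rfl⟩
      · refine ⟨⟨j, Or.inr rfl⟩, ?_⟩
        have hp : π^[j + k] x0 = π^[j] x0 := by
          rw [Function.iterate_add_apply]
          congr 1
          exact Function.iterate_minimalPeriod
        have hj : j + k = (j + k - 1) + 1 := by omega
        refine ⟨j + k - 1, Or.inr ?_⟩
        rw [← hp, hj, hsucc]
        simp only [Nat.add_sub_cancel]
        rw [hn]
      · refine ⟨⟨j, Or.inl (hm _)⟩, ⟨j + 1, Or.inl ?_⟩⟩
        rw [hsucc]
    have hall : ∀ u v, Rel2 m n u v →
        ((∃ j, u = π^[j] x0 ∨ u = m (π^[j] x0)) ↔ (∃ j, v = π^[j] x0 ∨ v = m (π^[j] x0))) := by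
      intro u v h
      induction h with
      | rel a b h =>
        constructor
        · intro hu
          rcases h with rfl | rfl
          · exact (hclosed _ hu).1
          · exact (hclosed _ hu).2
        · intro hv
          rcases h with rfl | rfl
          · have := (hclosed _ hv).1
            rwa [hm] at this
          · have := (hclosed _ hv).2
            rwa [hn] at this
      | refl a => exact Iff.rfl
      | symm a b _ ih => exact ih.symm
      | trans a b c _ _ ih1 ih2 => exact ih1.trans ih2
    intro v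
    have h0 : ∃ j, x0 = π^[j] x0 ∨ x0 = m (π^[j] x0) := ⟨0, Or.inl rfl⟩
    obtain ⟨j, hj | hj⟩ := (hall x0 v (htr x0 v)).mp h0
    · obtain ⟨i, hi, hi2⟩ := hE j
      exact ⟨i, hi, hi2.trans hj.symm⟩
    · obtain ⟨i, hi, hi2⟩ := hO j
      exact ⟨i, hi, hi2.trans hj.symm⟩

end Vale.Agent.Lib.P039
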