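import Vale.Agent.Lib.P039.Toggle

/-!
A connected cubic graph whose vertex set is partitioned into 4-cycles is Hamiltonian.
-/

namespace Vale.Agent.Lib.P039

variable {V : Type*}

theorem ham_of_square_partition [Fintype V] [DecidableEq V] (G : SimpleGraph V)
    [DecidableRel G.Adj] (hconn : G.Connected) (hreg : G.IsRegularOfDegree 3)
    (P : Finpartition (Finset.univ : Finset V))
    (hP : ∀ s ∈ P.parts, ∃ w x y z : V, s = {w, x, y, z} ∧
      G.Adj w x ∧ G.Adj x y ∧ G.Adj y z ∧ G.Adj z w ∧ w ≠ y ∧ x ≠ z) :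
    G.IsHamiltonian := by
  classical
  have : Nonempty V := hconn.nonempty
  choose! W X Y Z hS hwx hxy hyz hzw hwy hxz using hP
  let a : V → V := fun v =>
    let s := P.part v
    if v = W s then X s else if v = X s then W s else if v = Y s then Z s else Y s
  let c : V → V := fun v =>
    let s := P.part v
    if v = X s then Y s else if v = Y s then X s else if v = Z s then W s else Z s
  have hpart : ∀ s ∈ P.parts, ∀ u ∈ s, P.part u = s := fun s hs u hu =>
    P.part_eq_of_mem hs hu
  have hWm : ∀ s ∈ P.parts, W s ∈ s := fun s hs => by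
    have h := hS s hs
    have : W s ∈ ({W s, X s, Y s, Z s} : Finset V) := by simp
    rwa [← h] at this
  have hXm : ∀ s ∈ P.parts, X s ∈ s := fun s hs => by
    have h := hS s hs
    have : X s ∈ ({W s, X s, Y s, Z s} : Finset V) := by simp
    rwa [← h] at this
  have hYm : ∀ s ∈ P.parts, Y s ∈ s := fun s hs => by
    have h := hS s hs
    have : Y s ∈ ({W s, X s, Y s, Z s} : Finset V) := by simp
    rwa [← h] at this
  have hZm : ∀ s ∈ P.parts, Z s ∈ s := fun s hs => by
    have h := hS s hs
    have : Z s ∈ ({W s, X s, Y s, Z s} : Finset V) := by simp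
    rwa [← h] at this
  have hne1 : ∀ s ∈ P.parts, W s ≠ X s := fun s hs => (hwx s hs).ne
  have hne2 : ∀ s ∈ P.parts, X s ≠ Y s := fun s hs => (hxy s hs).ne
  have hne3 : ∀ s ∈ P.parts, Y s ≠ Z s := fun s hs => (hyz s hs).ne
  have hne4 : ∀ s ∈ P.parts, Z s ≠ W s := fun s hs => (hzw s hs).ne
  have aW : ∀ s ∈ P.parts, a (W s) = X s := by
    intro s hs
    simp only [a, hpart s hs _ (hWm s hs)]
    simp
  have aX : ∀ s ∈ P.parts, a (X s) = W s := by
    intro s hs
    simp only [a, hpart s hs _ (hXm s hs)]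
    simp [(hne1 s hs).symm]
  have aY : ∀ s ∈ P.parts, a (Y s) = Z s := by
    intro s hs
    simp only [a, hpart s hs _ (hYm s hs)]
    simp [(hwy s hs).symm, (hne2 s hs).symm]
  have aZ : ∀ s ∈ P.parts, a (Z s) = Y s := by
    intro s hs
    simp only [a, hpart s hs _ (hZm s hs)]
    simp [hne4 s hs, (hxz s hs).symm, (hne3 s hs).symm]
  have cX : ∀ s ∈ P.parts, c (X s) = Y s := by
    intro s hs
    simp only [c, hpart s hs _ (hXm s hs)]
    simp
  have cY : ∀ s ∈ P.parts, c (Y s) = X s := by
    intro s hs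
    simp only [c, hpart s hs _ (hYm s hs)]
    simp [(hne2 s hs).symm]
  have cZ : ∀ s ∈ P.parts, c (Z s) = W s := by
    intro s hs
    simp only [c, hpart s hs _ (hZm s hs)]
    simp [(hxz s hs).symm, (hne3 s hs).symm]
  have cW : ∀ s ∈ P.parts, c (W s) = Z s := by
    intro s hs
    simp only [c, hpart s hs _ (hWm s hs)]
    simp [hne1 s hs, hwy s hs, (hne4 s hs).symm]
  have hcases : ∀ v, ∃ s ∈ P.parts, v = W s ∨ v = X s ∨ v = Y s ∨ v = Z s := by
    intro v
    have hs : P.part v ∈ P.parts := P.part_mem.mpr (Finset.mem_univ v)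
    have hv : v ∈ P.part v := P.mem_part (Finset.mem_univ v)
    refine ⟨P.part v, hs, ?_⟩
    have h2 := hS _ hs
    rw [h2] at hv
    simpa using hv
  have ha : ∀ v, a (a v) = v := by
    intro v
    obtain ⟨s, hs, rfl | rfl | rfl | rfl⟩ := hcases v
    · rw [aW s hs, aX s hs]
    · rw [aX s hs, aW s hs]
    · rw [aY s hs, aZ s hs]
    · rw [aZ s hs, aY s hs]
  have hc : ∀ v, c (c v) = v := by
    intro v
    obtain ⟨s, hs, rfl | rfl | rfl | rfl⟩ := hcases v
    · rw [cW s hs, cZ s hs]
    · rw [cX s hs, cY s hs]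
    · rw [cY s hs, cX s hs]
    · rw [cZ s hs, cW s hs]
  have hac : ∀ v, a (c v) = c (a v) := by
    intro v
    obtain ⟨s, hs, rfl | rfl | rfl | rfl⟩ := hcases v
    · rw [cW s hs, aZ s hs, aW s hs, cX s hs]
    · rw [cX s hs, aY s hs, aX s hs, cW s hs]
    · rw [cY s hs, aX s hs, aY s hs, cZ s hs]
    · rw [cZ s hs, aW s hs, aZ s hs, cY s hs]
  have hne : ∀ v, a v ≠ c v := by
    intro v
    obtain ⟨s, hs, rfl | rfl | rfl | rfl⟩ := hcases v
    · rw [aW s hs, cW s hs]; exact hxz s hs
    · rw [aX s hs, cX s hs]; exact hwy s hs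
    · rw [aY s hs, cY s hs]; exact (hxz s hs).symm
    · rw [aZ s hs, cZ s hs]; exact (hwy s hs).symm
  have hne' : ∀ v, c (a v) ≠ v := by
    intro v
    obtain ⟨s, hs, rfl | rfl | rfl | rfl⟩ := hcases v
    · rw [aW s hs, cX s hs]; exact (hwy s hs).symm
    · rw [aX s hs, cW s hs]; exact (hxz s hs).symm
    · rw [aY s hs, cZ s hs]; exact hwy s hs
    · rw [aZ s hs, cY s hs]; exact hxz s hs
  have hadja : ∀ v, G.Adj v (a v) := by
    intro v
    obtain ⟨s, hs, rfl | rfl | rfl | rfl⟩ := hcases v
    · rw [aW s hs]; exact hwx s hs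
    · rw [aX s hs]; exact (hwx s hs).symm
    · rw [aY s hs]; exact hyz s hs
    · rw [aZ s hs]; exact (hyz s hs).symm
  have hadjc : ∀ v, G.Adj v (c v) := by
    intro v
    obtain ⟨s, hs, rfl | rfl | rfl | rfl⟩ := hcases v
    · rw [cW s hs]; exact (hzw s hs).symm
    · rw [cX s hs]; exact hxy s hs
    · rw [cY s hs]; exact (hxy s hs).symm
    · rw [cZ s hs]; exact hzw s hs
  -- the third neighbour
  have hthird : ∀ v, ∃ u, G.neighborFinset v \ {a v, c v} = {u} := by
    intro v
    apply Finset.card_eq_one.mp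
    have h1 : ({a v, c v} : Finset V) ⊆ G.neighborFinset v := by
      intro u hu
      simp only [Finset.mem_insert, Finset.mem_singleton] at hu
      rcases hu with rfl | rfl
      · simpa using hadja v
      · simpa using hadjc v
    rw [Finset.card_sdiff_of_subset h1, G.card_neighborFinset_eq_degree, hreg v,
      Finset.card_pair (hne v)]
  choose m hm using hthird
  have hmmem : ∀ v, m v ∈ G.neighborFinset v \ {a v, c v} := by
    intro v
    rw [hm v]
    simp
  have hadjm : ∀ v, G.Adj v (m v) := by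
    intro v
    have := (Finset.mem_sdiff.mp (hmmem v)).1
    simpa using this
  have hma : ∀ v, m v ≠ a v := by
    intro v h
    have := (Finset.mem_sdiff.mp (hmmem v)).2
    apply this
    simp [h]
  have hmc : ∀ v, m v ≠ c v := by
    intro v h
    have := (Finset.mem_sdiff.mp (hmmem v)).2
    apply this
    simp [h]
  have hnbr : ∀ v w, G.Adj v w → w = m v ∨ w = a v ∨ w = c v := by
    intro v w hvw
    by_cases h : w ∈ ({a v, c v} : Finset V)
    · simp only [Finset.mem_insert, Finset.mem_singleton] at h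
      exact Or.inr h
    · have h2 : w ∈ G.neighborFinset v \ {a v, c v} :=
        Finset.mem_sdiff.mpr ⟨by simpa using hvw, h⟩
      rw [hm v] at h2
      exact Or.inl (by simpa using h2)
  have hmm : ∀ v, m (m v) = v := by
    intro v
    rcases hnbr (m v) v (hadjm v).symm with h | h | h
    · exact h.symm
    · exfalso
      apply hma v
      have := congrArg a h
      rw [ha] at this
      exact this.symm
    · exfalso
      apply hmc v
      have := congrArg c h
      rw [hc] at this
      exact this.symm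
  obtain ⟨n, hval, htr⟩ := exists_transitive G hconn a c m ha hc hac hmm hne hne'
    hadja hadjc hadjm hnbr
  have hnA : ∀ v, G.Adj v (n v) := by
    intro v
    rcases hval.1 v with h | h
    · rw [h]; exact hadja v
    · rw [h]; exact hadjc v
  have hmn : ∀ v, m v ≠ n v := by
    intro v
    rcases hval.1 v with h | h
    · rw [h]; exact hma v
    · rw [h]; exact hmc v
  exact ham_of_transitive G m n hmm hval.2 hadjm hnA hmn htr

end Vale.Agent.Lib.P039
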