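import Vale.Agent.Lib.P039.Cycle

/-!
Toggling an alternating square across two different cycles of the 2-factor merges them.
The only global input is a parity count with fixed point free involutions.
-/

namespace Vale.Agent.Lib.P039

open Function

variable {V : Type*}

theorem even_card_of_invol [DecidableEq V] (A : Finset V) (f : V → V)
    (hf : ∀ v, f (f v) = v) (hfp : ∀ v ∈ A, f v ≠ v) (hmem : ∀ v ∈ A, f v ∈ A) :
    Even A.card := by
  have h : ∑ x ∈ A, (1 : ZMod 2) = 0 := by
    refine Finset.sum_involution (fun v _ => f v) ?_ ?_ ?_ ?_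
    · intro a _
      decide
    · intro a ha _
      exact hfp a ha
    · intro a ha
      exact hmem a ha
    · intro a _
      exact hf a
  have h2 : ((A.card : ℕ) : ZMod 2) = 0 := by
    simpa using h
  have h3 := (ZMod.natCast_eq_zero_iff A.card 2).mp h2
  exact even_iff_two_dvd.mpr h3

section toggle

variable (m n o : V → V) (x : V)

/-- the four vertices of the square through `x`. -/
def InS (u : V) : Prop := u = x ∨ u = n x ∨ u = o x ∨ u = n (o x)

/-- edges of the 2-factor except the two edges of the matching in the square. -/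
def Rel3 : V → V → Prop :=
  Relation.EqvGen (fun a b => b = m a ∨ (¬ InS n o x a ∧ b = n a))

variable {m n o x}

theorem rel3_to_rel2 {u v : V} (h : Rel3 m n o x u v) : Rel2 m n u v := by
  refine Relation.EqvGen.mono ?_ _ _ h
  rintro a b (h1 | ⟨_, h2⟩)
  · exact Or.inl h1
  · exact Or.inr h2

theorem rel3_m (u : V) : Rel3 m n o x u (m u) := Relation.EqvGen.rel _ _ (Or.inl rfl)

theorem rel2_m (u : V) : Rel2 m n u (m u) := Relation.EqvGen.rel _ _ (Or.inl rfl)

theorem rel2_n (u : V) : Rel2 m n u (n u) := Relation.EqvGen.rel _ _ (Or.inr rfl)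

theorem parity_core [Fintype V] [DecidableEq V] (hm : ∀ v, m (m v) = v) (hn : ∀ v, n (n v) = v)
    (hm0 : ∀ v, m v ≠ v) (hn0 : ∀ v, n v ≠ v) (t : V)
    (hS : ∀ u, InS n o x u → u = t ∨ u = n t ∨ ¬ Rel2 m n t u) :
    Rel3 m n o x t (n t) := by
  classical
  by_contra hcon
  let A : Finset V := Finset.univ.filter (fun u => Rel3 m n o x t u)
  have hA : ∀ u, u ∈ A ↔ Rel3 m n o x t u := by
    intro u
    simp [A]
  have htA : t ∈ A := (hA t).mpr (Relation.EqvGen.refl t)
  have h1 : Even A.card := by
    refine even_card_of_invol A m hm (fun v _ => hm0 v) ?_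
    intro v hv
    exact (hA _).mpr (Relation.EqvGen.trans _ _ _ ((hA v).mp hv) (rel3_m v))
  have h2 : Even (A.erase t).card := by
    refine even_card_of_invol (A.erase t) n hn (fun v _ => hn0 v) ?_
    intro v hv
    obtain ⟨hvt, hvA⟩ := Finset.mem_erase.mp hv
    have hv' := (hA v).mp hvA
    refine Finset.mem_erase.mpr ⟨?_, ?_⟩
    · intro h
      apply hcon
      have h7 : n t = v := by rw [← h, hn]
      rw [h7]
      exact hv'
    · by_cases hin : InS n o x v
      · rcases hS v hin with h | h | h
        · exact absurd h hvt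
        · exact absurd (h ▸ hv') hcon
        · exact absurd (rel3_to_rel2 hv') h
      · refine (hA _).mpr (Relation.EqvGen.trans _ _ _ hv' ?_)
        exact Relation.EqvGen.rel _ _ (Or.inr ⟨hin, rfl⟩)
  rw [Finset.card_erase_of_mem htA] at h2
  have h3 : 0 < A.card := Finset.card_pos.mpr ⟨t, htA⟩
  rcases h1 with ⟨r, hr⟩
  rcases h2 with ⟨q, hq⟩
  omega

/-- The toggled matching. -/
noncomputable def toggled (n o : V → V) (x : V) : V → V := by
  classical
  exact fun u => if InS n o x u then o u else n u

theorem toggled_in {u : V} (h : InS n o x u) : toggled n o x u = o u := by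
  classical
  simp [toggled, h]

theorem toggled_out {u : V} (h : ¬ InS n o x u) : toggled n o x u = n u := by
  classical
  simp [toggled, h]

theorem toggle_rel [Fintype V] [DecidableEq V] (hm : ∀ v, m (m v) = v) (hn : ∀ v, n (n v) = v)
    (hm0 : ∀ v, m v ≠ v) (hn0 : ∀ v, n v ≠ v)
    (hx : ¬ Rel2 m n x (o x)) :
    (∀ u v, Rel2 m n u v → Rel2 m (toggled n o x) u v) ∧ Rel2 m (toggled n o x) x (o x) := by
  classical
  have hsymm : ¬ Rel2 m n (o x) x := fun h => hx (Relation.EqvGen.symm _ _ h)
  have h1 : Rel3 m n o x x (n x) := by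
    refine parity_core hm hn hm0 hn0 x ?_
    rintro u (rfl | rfl | rfl | rfl)
    · exact Or.inl rfl
    · exact Or.inr (Or.inl rfl)
    · exact Or.inr (Or.inr hx)
    · refine Or.inr (Or.inr ?_)
      intro h
      apply hx
      refine Relation.EqvGen.trans _ _ _ h ?_
      have := rel2_n (m := m) (n := n) (o x)
      exact Relation.EqvGen.symm _ _ this
  have h2 : Rel3 m n o x (o x) (n (o x)) := by
    refine parity_core hm hn hm0 hn0 (o x) ?_
    rintro u (rfl | rfl | rfl | rfl)
    · exact Or.inr (Or.inr hsymm)
    · refine Or.inr (Or.inr ?_)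
      intro h
      apply hsymm
      refine Relation.EqvGen.trans _ _ _ h ?_
      have := rel2_n (m := m) (n := n) x
      exact Relation.EqvGen.symm _ _ this
    · exact Or.inl rfl
    · exact Or.inr (Or.inl rfl)
  have h3 : ∀ {u v}, Rel3 m n o x u v → Rel2 m (toggled n o x) u v := by
    intro u v h
    refine Relation.EqvGen.mono ?_ _ _ h
    rintro a b (h1 | ⟨h2, h3⟩)
    · exact Or.inl h1
    · refine Or.inr ?_
      rw [toggled_out h2]
      exact h3
  constructor
  · intro u v h
    induction h with
    | rel a b h =>
      rcases h with rfl | rfl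
      · exact rel2_m a
      · by_cases ha : InS n o x a
        · rcases ha with rfl | rfl | rfl | rfl
          · exact h3 h1
          · rw [hn]
            exact Relation.EqvGen.symm _ _ (h3 h1)
          · exact h3 h2
          · rw [hn]
            exact Relation.EqvGen.symm _ _ (h3 h2)
        · refine Relation.EqvGen.rel _ _ (Or.inr ?_)
          rw [toggled_out ha]
    | refl a => exact Relation.EqvGen.refl a
    | symm a b _ ih => exact Relation.EqvGen.symm _ _ ih
    | trans a b c _ _ ih1 ih2 => exact Relation.EqvGen.trans _ _ _ ih1 ih2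
  · refine Relation.EqvGen.rel _ _ (Or.inr ?_)
    rw [toggled_in (Or.inl rfl)]

end toggle

/-- Perfect matchings of the squares. -/
def Valid (a c n : V → V) : Prop := (∀ v, n v = a v ∨ n v = c v) ∧ ∀ v, n (n v) = v

section valid

variable {a c n : V → V} {x : V}

/-- The other matching edge of the square at a vertex. -/
noncomputable def other (a c n : V → V) (v : V) : V := by
  classical
  exact if n v = a v then c v else a v

theorem other_of {v : V} (h : n v = a v) : other a c n v = c v := by
  classical
  simp [other, h]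

theorem other_of' {v : V} (h : n v ≠ a v) : other a c n v = a v := by
  classical
  simp [other, h]

theorem valid_other
    (ha : ∀ v, a (a v) = v) (hc : ∀ v, c (c v) = v) (hac : ∀ v, a (c v) = c (a v))
    (hne : ∀ v, a v ≠ c v) (hne2 : ∀ v, c (a v) ≠ v) (hv : Valid a c n) :
    (∀ v, other a c n (other a c n v) = v) ∧ (∀ v, n (other a c n v) = other a c n (n v)) ∧
    (∀ v, other a c n v = a v ∨ other a c n v = c v) := by
  classical
  obtain ⟨hv1, hv2⟩ := hv
  have f1 : ∀ v, n v = a v → n (c v) = a (c v) := by
    intro v h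
    rcases hv1 (c v) with h2 | h2
    · exact h2
    · rw [hc] at h2
      have h3 : n v = c v := by
        have := hv2 (c v)
        rwa [h2] at this
      exact absurd (h.symm.trans h3) (hne v)
  have f2 : ∀ v, n v ≠ a v → n (a v) = c (a v) := by
    intro v h
    rcases hv1 (a v) with h2 | h2
    · rw [ha] at h2
      have h3 : n v = a v := by
        have := hv2 (a v)
        rwa [h2] at this
      exact absurd h3 h
    · exact h2
  have f3 : ∀ v, n v ≠ a v → n v = c v := by
    intro v h
    rcases hv1 v with h2 | h2
    · exact absurd h2 h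
    · exact h2
  refine ⟨?_, ?_, ?_⟩
  · intro v
    by_cases h : n v = a v
    · rw [other_of h, other_of (f1 v h), hc]
    · rw [other_of' h, other_of' (?_ : n (a v) ≠ a (a v)), ha]
      rw [f2 v h, ha]
      exact hne2 v
  · intro v
    by_cases h : n v = a v
    · rw [other_of h, f1 v h, h, other_of (?_ : n (a v) = a (a v))]
      · exact hac v
      · rw [ha, ← h, hv2]
    · have h3 := f3 v h
      rw [other_of' h, f2 v h, h3, other_of' (?_ : n (c v) ≠ a (c v))]
      · exact (hac v).symm
      · rw [← h3, hv2, h3]
        intro h5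
        have h6 : a v = c v := by
          have := congrArg a h5
          rw [ha] at this
          exact this.symm ▸ rfl
        exact hne v h6
  · intro v
    by_cases h : n v = a v
    · rw [other_of h]
      exact Or.inr rfl
    · rw [other_of' h]
      exact Or.inl rfl

theorem valid_toggled
    (ha : ∀ v, a (a v) = v) (hc : ∀ v, c (c v) = v) (hac : ∀ v, a (c v) = c (a v))
    (hne : ∀ v, a v ≠ c v) (hne2 : ∀ v, c (a v) ≠ v) (hv : Valid a c n) (x : V) :
    Valid a c (toggled n (other a c n) x) := by
  classical
  obtain ⟨ho1, ho2, ho3⟩ := valid_other ha hc hac hne hne2 hv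
  obtain ⟨hv1, hv2⟩ := hv
  set o := other a c n with ho
  have hclO : ∀ u, InS n o x u → InS n o x (o u) := by
    rintro u (rfl | rfl | rfl | rfl)
    · exact Or.inr (Or.inr (Or.inl rfl))
    · rw [← ho2]
      exact Or.inr (Or.inr (Or.inr rfl))
    · rw [ho1]
      exact Or.inl rfl
    · rw [ho2, ho1]
      exact Or.inr (Or.inl rfl)
  have hclN : ∀ u, InS n o x u → InS n o x (n u) := by
    rintro u (rfl | rfl | rfl | rfl)
    · exact Or.inr (Or.inl rfl)
    · rw [hv2]
      exact Or.inl rfl
    · exact Or.inr (Or.inr (Or.inr rfl))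
    · rw [hv2]
      exact Or.inr (Or.inr (Or.inl rfl))
  constructor
  · intro v
    by_cases h : InS n o x v
    · rw [toggled_in h]
      exact ho3 v
    · rw [toggled_out h]
      exact hv1 v
  · intro v
    by_cases h : InS n o x v
    · rw [toggled_in h, toggled_in (hclO v h), ho1]
    · have h2 : ¬ InS n o x (n v) := by
        intro h3
        have := hclN _ h3
        rw [hv2] at this
        exact h this
      rw [toggled_out h, toggled_out h2, hv2]

end valid

/-- Search: a maximal matching choice generates a transitive action. -/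
theorem exists_transitive [Fintype V] [DecidableEq V] [Nonempty V] (G : SimpleGraph V)
    (hconn : G.Connected) (a c m : V → V)
    (ha : ∀ v, a (a v) = v) (hc : ∀ v, c (c v) = v) (hac : ∀ v, a (c v) = c (a v))
    (hm : ∀ v, m (m v) = v)
    (hne : ∀ v, a v ≠ c v) (hne2 : ∀ v, c (a v) ≠ v)
    (hadja : ∀ v, G.Adj v (a v)) (hadjc : ∀ v, G.Adj v (c v)) (hadjm : ∀ v, G.Adj v (m v))
    (hnbr : ∀ v w, G.Adj v w → w = m v ∨ w = a v ∨ w = c v) :
    ∃ n, Valid a c n ∧ ∀ u v, Rel2 m n u v := by
  classical
  have hm0 : ∀ v, m v ≠ v := fun v h => (hadjm v).ne h.symm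
  let p : (V → V) → ℕ := fun n => (Finset.univ.filter (fun q : V × V => Rel2 m n q.1 q.2)).card
  let VS : Finset (V → V) := Finset.univ.filter (fun n => Valid a c n)
  have hVne : VS.Nonempty := by
    refine ⟨a, ?_⟩
    simp only [VS, Finset.mem_filter, Finset.mem_univ, true_and]
    exact ⟨fun v => Or.inl rfl, ha⟩
  obtain ⟨n, hnV, hmax⟩ := Finset.exists_max_image VS p hVne
  have hval : Valid a c n := by
    simpa [VS] using hnV
  refine ⟨n, hval, ?_⟩
  have hn0 : ∀ v, n v ≠ v := by
    intro v h
    rcases hval.1 v with h2 | h2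
    · exact (hadja v).ne (h2.symm.trans h).symm
    · exact (hadjc v).ne (h2.symm.trans h).symm
  obtain ⟨ho1, ho2, ho3⟩ := valid_other ha hc hac hne hne2 hval
  have hedge : ∀ x y, G.Adj x y → Rel2 m n x y := by
    intro x y hxy
    by_contra hcon
    have hy : y = other a c n x := by
      rcases hnbr x y hxy with h | h | h
      · exact absurd (h ▸ rel2_m x) hcon
      · by_cases h2 : n x = a x
        · exact absurd (by rw [h, ← h2]; exact rel2_n x) hcon
        · rw [other_of' h2]; exact h
      · by_cases h2 : n x = a x
        · rw [other_of h2]; exact h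
        · rcases hval.1 x with h3 | h3
          · exact absurd h3 h2
          · exact absurd (by rw [h, ← h3]; exact rel2_n x) hcon
    subst hy
    obtain ⟨ht1, ht2⟩ := toggle_rel (m := m) (n := n) (o := other a c n) (x := x)
      hm hval.2 hm0 hn0 hcon
    have hv' := valid_toggled ha hc hac hne hne2 hval x
    have hle := hmax _ (show toggled n (other a c n) x ∈ VS by
      simp only [VS, Finset.mem_filter, Finset.mem_univ, true_and]
      exact hv')
    have hlt : p n < p (toggled n (other a c n) x) := by
      apply Finset.card_lt_card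
      rw [Finset.ssubset_iff_of_subset]
      · refine ⟨(x, other a c n x), ?_, ?_⟩
        · simpa using ht2
        · simpa using hcon
      · intro q hq
        simp only [Finset.mem_filter, Finset.mem_univ, true_and] at hq ⊢
        exact ht1 _ _ hq
    omega
  intro u v
  obtain ⟨w⟩ := hconn.preconnected u v
  induction w with
  | nil => exact Relation.EqvGen.refl _
  | cons h _ ih => exact Relation.EqvGen.trans _ _ _ (hedge _ _ h) ih

end Vale.Agent.Lib.P039
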